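import Vale.Agent.P073.RT.H655.Rows2
import Vale.Agent.P073.H655.MapT
import Vale.Agent.P073.RT.An6

/-!
# P073, mixed singular sets: the size function, the squeezing maps and the smooth map with variable
accuracy
-/

namespace Vale.Agent.P073.RT.H655

open MeasureTheory Set Filter Topology Metric
open Vale.Agent.P073.St (V Mat euc)
open Vale.Agent.P073.SQ (ev cube dE SuppDiffeo)
open Vale.Agent.P073.AB (cl err ofReal_norm_rpow diffeo_smooth diffeo_maps)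
open Vale.Agent.P073.H655 (ocube oU cU FineOff SqzC)
open Vale.Agent.P073.H880
open _root_.P073 (ConHomeo ConicalOn ConicalWithinAt)
open scoped ContDiff ENNReal

variable {p : ℝ} {Ω Λ K K' : Set V}

/-- the size function -/
theorem exists_size (hΩ : IsOpen Ω) {g : V → V} (hg : ContinuousOn g Ω) {σ : V → ℝ}
    (hσ : ContinuousOn σ Ω) (hσ0 : ∀ x ∈ Ω, 0 < σ x) :
    ∃ ρ₀ : V → ℝ, _root_.P073.Net.SizeFn Ω ρ₀ ∧
      ∀ x ∈ Ω, ∀ y, ‖x - y‖ ≤ 4 * ρ₀ x → y ∈ Ω ∧ ‖g y - g x‖ < σ x / 8 ∧ σ y < 2 * σ x := by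
  set O : Set (V × V) := {q | q.1 ∈ Ω ∧ q.2 ∈ Ω ∧ ‖g q.2 - g q.1‖ < σ q.1 / 8 ∧
    σ q.2 < 2 * σ q.1} with hO
  by_cases hne : Oᶜ.Nonempty
  · have hOo : IsOpen O := by
      rw [isOpen_iff_mem_nhds]
      rintro ⟨x, y⟩ ⟨hx, hy, h1, h2⟩
      have t1 : Tendsto (fun q : V × V => q.1) (𝓝 (x, y)) (𝓝 x) := continuous_fst.tendsto (x, y)
      have t2 : Tendsto (fun q : V × V => q.2) (𝓝 (x, y)) (𝓝 y) := continuous_snd.tendsto (x, y)
      have g1 := (hg.continuousAt (hΩ.mem_nhds hx)).tendsto.comp t1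
      have g2 := (hg.continuousAt (hΩ.mem_nhds hy)).tendsto.comp t2
      have s1 := (hσ.continuousAt (hΩ.mem_nhds hx)).tendsto.comp t1
      have s2 := (hσ.continuousAt (hΩ.mem_nhds hy)).tendsto.comp t2
      filter_upwards [t1.eventually (hΩ.mem_nhds hx), t2.eventually (hΩ.mem_nhds hy),
        ((g2.sub g1).norm).eventually_lt (s1.div_const 8) h1,
        s2.eventually_lt (s1.const_mul 2) h2] with q a1 a2 a3 a4
      exact ⟨a1, a2, a3, a4⟩
    refine ⟨fun x => min 1 (infDist ((x, x) : V × V) Oᶜ / 8), ⟨fun x y => ?_, fun x hx => ?_,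
      fun x hx => ?_, fun x => min_le_left _ _⟩, fun x hx y hxy => ?_⟩
    · have h1 : infDist ((x, x) : V × V) Oᶜ ≤ infDist ((y, y) : V × V) Oᶜ + dist ((x, x) : V × V) (y, y) :=
        infDist_le_infDist_add_dist
      rw [Prod.dist_eq, max_self, dist_eq_norm] at h1
      have h2 := norm_nonneg (x - y)
      rcases min_cases (1 : ℝ) (infDist ((y, y) : V × V) Oᶜ / 8) with h | h
      · rw [h.1]
        exact (min_le_left _ _).trans (by linarith)
      · rw [h.1]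
        exact (min_le_right _ _).trans (by linarith)
    · refine lt_min one_pos (div_pos ?_ (by norm_num))
      rw [← hOo.isClosed_compl.notMem_iff_infDist_pos hne]
      intro h
      apply h
      refine ⟨hx, hx, ?_, ?_⟩
      · simp only [sub_self, norm_zero]
        have := hσ0 x hx
        positivity
      · have := hσ0 x hx
        simp only
        linarith
    · refine (min_le_right _ _).trans ?_
      rw [infDist_zero_of_mem (show ((x, x) : V × V) ∈ Oᶜ from fun h => hx h.1)]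
      norm_num
    · have h0 : 0 < infDist ((x, x) : V × V) Oᶜ := by
        rw [← hOo.isClosed_compl.notMem_iff_infDist_pos hne]
        intro h
        apply h
        refine ⟨hx, hx, ?_, ?_⟩
        · simp only [sub_self, norm_zero]
          have := hσ0 x hx
          positivity
        · have := hσ0 x hx
          simp only
          linarith
      have h1 : ‖x - y‖ < infDist ((x, x) : V × V) Oᶜ := by
        have h2 := min_le_right (1 : ℝ) (infDist ((x, x) : V × V) Oᶜ / 8)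
        linarith
      have h2 : ((x, y) : V × V) ∈ O := by
        by_contra h3
        have h4 := infDist_le_dist_of_mem (x := ((x, x) : V × V)) (show ((x, y) : V × V) ∈ Oᶜ from h3)
        rw [Prod.dist_eq, dist_self, max_eq_right dist_nonneg, dist_eq_norm] at h4
        linarith
      exact ⟨h2.2.1, h2.2.2.1, h2.2.2.2⟩
  · rw [not_nonempty_iff_eq_empty, compl_empty_iff] at hne
    have hall : ∀ x y : V, ((x, y) : V × V) ∈ O := fun x y => by rw [hne]; trivial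
    refine ⟨fun _ => 1, ⟨fun x y => by have := norm_nonneg (x - y); linarith, fun _ _ => one_pos,
      fun x hx => absurd (hall x x).1 hx, fun _ => le_rfl⟩, fun x hx y _ => ?_⟩
    have h := hall x y
    exact ⟨h.2.1, h.2.2.1, h.2.2.2⟩

/-- a positive lower bound on every box -/
theorem exists_box_bound (W : Boxes Λ K') {θ : V → ℝ} (hθ : ContinuousOn θ Λ)
    (hθ0 : ∀ y ∈ Λ, 0 < θ y) (i : W.ι) : ∃ c > 0, ∀ y ∈ cube (W.c i) (W.ρ i), c ≤ θ y := by
  have hc := Vale.Agent.P073.H655.isCompact_cube (W.pos i) (c := W.c i)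
  obtain ⟨z, hz, hzm⟩ := hc.exists_isMinOn ⟨W.c i, fun l => by simp [(W.pos i).le]⟩
    (hθ.mono (W.sub i))
  exact ⟨θ z, hθ0 z (W.sub i hz), fun y hy => hzm hy⟩

/-- the squeezing maps, with variable accuracy -/
theorem exists_sqzθ {C : ℝ} (hC : SqzC C) (hΛ : IsOpen Λ)
    (hK' : IsOpen (Λ \ K')) (hnull : ∀ l : Fin 3, volume ((fun y : V => y l) '' K') = 0)
    (W : Boxes Λ K') {κ : ℝ} (hκ : 0 < κ) {θ : V → ℝ} (hθ : ContinuousOn θ Λ)
    (hθ0 : ∀ y ∈ Λ, 0 < θ y) :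
    ∃ U : W.ι → Set V, (∀ i, IsOpen (U i)) ∧ (∀ i, U i ⊆ cube (W.c i) (W.ρ i)) ∧
      K' ⊆ ⋃ i, U i ∧ ∀ ε : W.ι → ℝ, (∀ i, 0 < ε i) → (∀ i, ε i ≤ 1) →
        ∃ T : V → V, IsSqz (max C 1) Λ K' W U κ ε T ∧ ∀ y ∈ Λ, ‖T y - y‖ ≤ θ y := by
  choose m hm0 hm using exists_box_bound W hθ hθ0
  have h1 := fun i => hC (W.c i) (W.ρ i) (K' ∩ cube (W.c i) (W.ρ i)) (min κ (m i)) (W.pos i)
    (Vale.Agent.P073.H655.isCompact_part hK' W i) (Vale.Agent.P073.H655.part_subset W i)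
    (fun l => measure_mono_null (image_mono inter_subset_left) (hnull l)) (lt_min hκ (hm0 i))
  choose U D hUo hNU hUsub hUκ hDc hDsub hT using h1
  refine ⟨U, hUo, fun i => (hUsub i).trans Vale.Agent.P073.H655.ocube_subset, ?_, ?_⟩
  · intro y hy
    obtain ⟨i, hi⟩ := W.cover y hy
    exact mem_iUnion.2 ⟨i, hNU i ⟨hy, Vale.Agent.P073.H655.ocube_subset hi⟩⟩
  intro ε hε hε1
  choose T hTD hTκ hTC hTU hTfar using fun i => hT i (ε i) (hε i) (hε1 i)
  obtain ⟨S, hS, hSi, hSid⟩ := Vale.Agent.P073.H655.exists_glue hΛ W D hDsub T hTD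
  refine ⟨S, ⟨hS, ?_, ?_, ?_, ?_⟩, ?_⟩
  · intro y hy
    by_cases h : ∃ i, y ∈ ocube (W.c i) (W.ρ i)
    · obtain ⟨i, hi⟩ := h
      rw [(hSi i y hi).eq_of_nhds]
      exact (hTκ i y).trans (min_le_left _ _)
    · push Not at h
      rw [(hSid y hy h).eq_of_nhds, id, sub_self, norm_zero]
      exact hκ.le
  · intro y hy
    by_cases h : ∃ i, y ∈ ocube (W.c i) (W.ρ i)
    · obtain ⟨i, hi⟩ := h
      rw [(hSi i y hi).fderiv_eq]
      exact (hTC i y).trans (le_max_left _ _)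
    · push Not at h
      rw [(hSid y hy h).fderiv_eq, fderiv_id]
      exact (ContinuousLinearMap.norm_id_le).trans (le_max_right _ _)
  · intro i y hy
    rw [(hSi i y (hUsub i hy)).fderiv_eq]
    exact hTU i y hy
  · intro y hy hyW
    have h : ∀ i, y ∉ ocube (W.c i) (W.ρ i) := fun i hi =>
      hyW (Vale.Agent.P073.H655.oU_subset_cU W (mem_iUnion.2 ⟨i, hi⟩))
    rw [(hSid y hy h).fderiv_eq, fderiv_id, sub_self, norm_zero]
    exact hκ.le
  · intro y hy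
    by_cases h : ∃ i, y ∈ ocube (W.c i) (W.ρ i)
    · obtain ⟨i, hi⟩ := h
      rw [(hSi i y hi).eq_of_nhds]
      exact (hTκ i y).trans ((min_le_right _ _).trans
        (hm i y (Vale.Agent.P073.H655.ocube_subset hi)))
    · push Not at h
      rw [(hSid y hy h).eq_of_nhds, id, sub_self, norm_zero]
      exact (hθ0 y hy).le

/-- the target cubes and the sets `U`, with variable accuracy -/
theorem target_dataθ (hp : 1 ≤ p) {CT : ℝ} (hCT : SqzC CT) (hΩ : St.IsBoundedDomain Ω)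
    (hΛ : St.IsBoundedDomain Λ) (hK' : K' ⊆ Ω) (hK'o : IsOpen (Ω \ K')) {g : V → V}
    (hg : St.IsHomeo Ω Λ g) (hnull : ∀ l : Fin 3, volume ((fun y : V => y l) '' (g '' K')) = 0)
    (hK'0 : volume K' = 0) {H : V → ℝ≥0∞} (hH : ∫⁻ x in Ω, H x ≠ ⊤) {t : ℝ} (ht : 0 < t)
    {θ : V → ℝ} (hθ : ContinuousOn θ Λ) (hθ0 : ∀ y ∈ Λ, 0 < θ y) :
    ∃ (N1 : Set V) (W2 : Boxes Λ (g '' K')) (κ : ℝ) (U : W2.ι → Set V),
      IsOpen N1 ∧ N1 ⊆ Ω ∧ ∫⁻ x in N1, H x ≤ ENNReal.ofReal t ∧ IsOpen (g '' N1) ∧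
      cU W2 ⊆ g '' N1 ∧ 0 < κ ∧ κ ≤ t / 2 ∧
      ENNReal.ofReal (κ ^ p) * ∫⁻ x in Ω, H x ≤ ENNReal.ofReal t ∧
      (∀ i, IsOpen (U i)) ∧ (∀ i, U i ⊆ cube (W2.c i) (W2.ρ i)) ∧ g '' K' ⊆ ⋃ i, U i ∧
      ∀ ε : W2.ι → ℝ, (∀ i, 0 < ε i) → (∀ i, ε i ≤ 1) →
        ∃ T : V → V, IsSqz (max CT 1) Λ (g '' K') W2 U κ ε T ∧ ∀ y ∈ Λ, ‖T y - y‖ ≤ θ y := by
  obtain ⟨N1, n1, n2, n3, n4⟩ := exists_open_small hΩ.1 hH hK' hK'0 ht
  have ho := isOpen_image hΛ.1 hg n1 n3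
  have hgN : g '' N1 ⊆ Λ := by
    rintro _ ⟨x, hx, rfl⟩
    exact homeo_maps hg (n3 hx)
  have hop := Vale.Agent.P073.H655.isOpen_diff_image hΛ.1 hK' hK'o hg
  obtain ⟨W2, hW2⟩ := H739.specBoxesIn Λ (g '' K') (g '' N1) hΛ.1
    (PK.isBounded_of_domain hΛ) ho (image_mono n2) hgN hop hnull
  obtain ⟨ε, e1, -, e3⟩ := exists_ratio hp (ι := Unit) (E := fun _ => ∫⁻ x in Ω, H x)
    (fun _ => hH) (e := fun _ => t) (fun _ => ht)
  have hκ : 0 < min (ε ()) (t / 2) := lt_min (e1 ()) (by linarith)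
  obtain ⟨U, u1, u2, u3, u4⟩ := exists_sqzθ hCT hΛ.1 hop hnull W2 hκ hθ hθ0
  refine ⟨N1, W2, min (ε ()) (t / 2), U, n1, n3, n4, ho, iUnion_subset hW2, hκ,
    min_le_right _ _, ?_, u1, u2, u3, u4⟩
  refine le_trans ?_ (e3 ())
  gcongr
  · exact min_le_left _ _

/-- the smooth map, with variable accuracy -/
theorem exists_Gs (hp : 1 ≤ p) (hΩ : St.IsBoundedDomain Ω) (hΛ : St.IsBoundedDomain Λ)
    {g : V → V} (hg : St.IsHomeo Ω Λ g) (W : Boxes Ω ∅) (h : ConHomeo Ω Λ) {A : Set V}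
    (hAo : IsOpen (Ω \ A)) {ι : Type} {U : ι → Set V} (hUo : ∀ i, IsOpen (U i))
    (hUΛ : ∀ i, U i ⊆ Λ) (hAU : ∀ x ∈ A, h.toFun x ∈ ⋃ i, U i) {N1 : Set V} (hN1 : N1 ⊆ Ω)
    (hN1o : IsOpen (g '' N1)) (W2 : Boxes Λ K') (hW2 : cU W2 ⊆ g '' N1)
    (hh : ∀ x ∈ Ω, x ∉ cU W → h.toFun x = g x) {t : ℝ} (ht : 0 < t) {e : W.ι → ℝ}
    (he : ∀ i, 0 < e i) {s0 : V → ℝ} (hs0 : ContinuousOn s0 Ω) (hs00 : ∀ x ∈ Ω, 0 < s0 x) :
    ∃ G : V → V, St.IsDiffeo Ω Λ G ∧ (∀ x ∈ Ω, ‖G x - h.toFun x‖ ≤ t / 2) ∧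
      (∀ x ∈ Ω, ‖G x - h.toFun x‖ ≤ s0 x) ∧
      (∀ i k, ∀ σ ∈ ({1, -1} : Finset ℝ), ∀ j, j ≠ k → ∫⁻ x in cube (W.c i) (W.ρ i),
        ENNReal.ofReal (‖fderiv ℝ G (Function.update x k (W.c i k + σ * W.ρ i)) (ev j) -
          lineDeriv ℝ h.toFun (Function.update x k (W.c i k + σ * W.ρ i)) (ev j)‖ ^ p) ≤
        ENNReal.ofReal (e i)) ∧
      (∀ j, ∫⁻ x in Ω, ENNReal.ofReal (‖fderiv ℝ G x (ev j) - fderiv ℝ h.toFun x (ev j)‖ ^ p) ≤
        ENNReal.ofReal t) ∧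
      (∀ x ∈ A, x ∈ Ω → ∃ i, G x ∈ U i) ∧
      ∀ x ∈ Ω, x ∉ cU W → G x ∈ cU W2 → x ∈ N1 := by
  have hgN : g '' N1 ⊆ Λ := by
    rintro _ ⟨x, hx, rfl⟩
    exact homeo_maps hg (hN1 hx)
  have hΩc : (Ωᶜ).Nonempty := H739.compl_nonempty (PK.isBounded_of_domain hΩ) Subset.rfl
  have hΛc : (Λᶜ).Nonempty := H739.compl_nonempty (PK.isBounded_of_domain hΛ) Subset.rfl
  obtain ⟨s1, a1, a2, a3⟩ := exists_gap (Ω := Ω) (F1 := h.toFun) (F2 := id) h.cont
    continuousOn_id (C1 := (⋃ i, U i)ᶜ) (C2 := (Ω \ A)ᶜ)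
    (isOpen_iUnion hUo).isClosed_compl hAo.isClosed_compl
    (hΛc.mono (compl_subset_compl.2 (iUnion_subset hUΛ)))
    (hΩc.mono (compl_subset_compl.2 sdiff_subset))
    (fun x hx => by
      by_cases hxA : x ∈ A
      · exact Or.inl (by rw [notMem_compl_iff]; exact hAU x hxA)
      · exact Or.inr (by rw [notMem_compl_iff]; exact ⟨hx, hxA⟩))
  have hcl : IsClosed (cU W2 ∪ Λᶜ) := by
    have : cU W2 ∪ Λᶜ = (Λ \ cU W2)ᶜ := by
      ext y
      simp only [mem_union, mem_compl_iff, Set.mem_sdiff, not_and, not_not]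
      constructor
      · rintro (h1 | h1)
        · exact fun _ => h1
        · exact fun h2 => absurd h2 h1
      · intro h1
        by_cases h2 : y ∈ Λ
        · exact Or.inl (h1 h2)
        · exact Or.inr h2
    rw [this, isClosed_compl_iff, isOpen_iff_mem_nhds]
    rintro y ⟨hy, hy'⟩
    filter_upwards [Vale.Agent.P073.H655.eventually_notMem_cU W2 hy hy', hΛ.1.mem_nhds hy] with z hz hz'
    exact ⟨hz', hz⟩
  obtain ⟨s2, b1, b2, b3⟩ := exists_gap (Ω := Ω) (F1 := h.toFun) (F2 := h.toFun) h.cont h.cont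
    (C1 := cU W2 ∪ Λᶜ) (C2 := (g '' N1)ᶜ) hcl hN1o.isClosed_compl
    (hΛc.mono subset_union_right) (hΛc.mono (compl_subset_compl.2 hgN))
    (fun x hx => by
      by_cases hx1 : h.toFun x ∈ cU W2 ∪ Λᶜ
      · refine Or.inr ?_
        rw [notMem_compl_iff]
        rcases hx1 with hx1 | hx1
        · exact hW2 hx1
        · exact absurd (h.mapsTo hx) hx1
      · exact Or.inl hx1)
  obtain ⟨G, g1, g2, g3, g4⟩ := exists_smooth2 hp hΩ hΛ W h
    (s := fun x => min (min (t / 2) (s0 x)) (min (s1 x) (s2 x)))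
    ((continuousOn_const.inf hs0).inf (a1.inf b1))
    (fun x hx => lt_min (lt_min (by linarith) (hs00 x hx)) (lt_min (a2 x hx) (b2 x hx))) ht he
  refine ⟨G, g1, fun x hx => (g2 x hx).trans ((min_le_left _ _).trans (min_le_left _ _)),
    fun x hx => (g2 x hx).trans ((min_le_left _ _).trans (min_le_right _ _)), g3, g4, ?_, ?_⟩
  · intro x hxA hx
    have h1 := a3 x hx (fun h2 => h2.2 hxA)
    have h2 := dist_lt_of
      ((g2 x hx).trans ((min_le_right _ _).trans (min_le_left _ _))) h1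
    rw [notMem_compl_iff] at h2
    exact mem_iUnion.1 h2
  · intro x hx hxW hGx
    by_contra hx1
    have h0 : h.toFun x ∈ (g '' N1)ᶜ := by
      rw [hh x hx hxW]
      rintro ⟨z, hz, hz'⟩
      exact hx1 (homeo_inj hg (hN1 hz) hx hz' ▸ hz)
    have h1 := b3 x hx h0
    exact dist_lt_of ((g2 x hx).trans ((min_le_right _ _).trans (min_le_right _ _))) h1
      (Or.inl hGx)

end Vale.Agent.P073.RT.H655
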