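import Vale.Agent.P073.RT.H655.Size
import Vale.Agent.P073.RT.An8

/-!
# P073, mixed singular sets: one step with variable accuracy
-/

namespace Vale.Agent.P073.RT.H655

open MeasureTheory Set Filter Topology Metric
open Vale.Agent.P073.St (V Mat euc)
open Vale.Agent.P073.SQ (ev cube dE SuppDiffeo)
open Vale.Agent.P073.AB (cl err ofReal_norm_rpow diffeo_smooth diffeo_maps)
open Vale.Agent.P073.H655 (ocube oU cU FineOff SqzC)
open Vale.Agent.P073.H880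
open _root_.P073 (ConHomeo ConicalOn ConicalWithinAt)
open _root_.P073.PR720 (LF)
open _root_.P073.PA691 (BoxCx Cells)
open scoped ContDiff ENNReal

variable {p : ℝ} {Ω Λ K K' : Set V}

/-- the squeeze of all cubes with constant `C`; the cubes are preserved -/
def SqueezeQ (p : ℝ) (C : ℝ≥0∞) : Prop :=
  ∀ (Ω Λ K : Set V) (W : Boxes Ω K) (G : V → V) (e : W.ι → ℝ≥0∞),
    IsOpen Ω → St.IsDiffeo Ω Λ G → (∀ i, e i ≠ 0) →
    ∃ S : V → V, St.IsDiffeo Ω Ω S ∧ (∀ x, x ∉ cU W → S x = x) ∧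
      (∀ i, ∀ x ∈ cube (W.c i) (W.ρ i), S x ∈ cube (W.c i) (W.ρ i)) ∧
      ∀ i, ∑ j, ∫⁻ x in cube (W.c i) (W.ρ i), dE p (G ∘ S) j x ≤ C * facesE p W G i + e i

theorem exists_squeezeQ (hCube : SpecCube3) (hp : 1 ≤ p) (hp3 : p < 3) :
    ∃ C : ℝ≥0∞, C ≠ ⊤ ∧ SqueezeQ p C := by
  obtain ⟨C, hC, hcube⟩ := hCube p hp hp3
  refine ⟨C, hC, ?_⟩
  intro Ω Λ K W G e hΩ hG he
  have hcd : ContDiffOn ℝ 1 G Ω := (diffeo_smooth hG).of_le (by exact_mod_cast le_top)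
  have hex := fun i => hcube (W.c i) (W.ρ i) Ω G (e i) (W.pos i) hΩ (W.sub i) hcd (he i)
  choose Ks s h1 h2 h3 using hex
  have hKc : ∀ i, Ks i ⊆ cube (W.c i) (W.ρ i) := fun i x hx l => (h2 i hx l).le
  have hKd : ∀ i j, i ≠ j → Disjoint (Ks i) (cube (W.c j) (W.ρ j)) := fun i j hij =>
    Set.disjoint_left.2 fun x hx hx' => W.disj i j hij x (h2 i hx) hx'
  obtain ⟨S, hS, hS1, hS2, hS3⟩ := SQ.specGlue Ω _ Ks s hΩ h1 (fun i => (hKc i).trans (W.sub i))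
    (fun i j hij => (hKd i j hij).mono_right (hKc j)) (fun x hx => by
      obtain ⟨N, hN, hf⟩ := W.fin x hx
      refine ⟨N, hN, hf.subset ?_⟩
      rintro i ⟨y, hy, hyN⟩
      exact ⟨y, hKc i hy, hyN⟩)
  have hloc : ∀ i, ∀ x ∈ cube (W.c i) (W.ρ i), S =ᶠ[𝓝 x] s i := fun i x hx =>
    hS3 i x (W.sub i hx) fun j hj hxK => Set.disjoint_left.1 (hKd j i hj) hxK hx
  refine ⟨S, hS, fun x hx => hS2 x fun i hi => hx (mem_iUnion.2 ⟨i, hKc i hi⟩),
    fun i x hx => ?_, fun i => ?_⟩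
  · rw [(hloc i x hx).eq_of_nhds]
    by_cases hxK : x ∈ Ks i
    · exact hKc i ((h1 i).mapsTo hxK)
    · rw [(h1 i).supp x hxK]
      exact hx
  have e1 : ∀ j, ∫⁻ x in cube (W.c i) (W.ρ i), dE p (G ∘ S) j x =
      ∫⁻ x in cube (W.c i) (W.ρ i), dE p (G ∘ s i) j x := by
    intro j
    refine setLIntegral_congr_fun (SQ.isClosed_cube _ _).measurableSet fun x hx => ?_
    exact SQ.dE_congr (SQ.comp_congr (hloc i x hx)) j
  simp only [e1]
  exact h3 i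

/-- one step of the approximation -/
theorem one_step_fine (hp : 1 ≤ p) (hΩ : St.IsBoundedDomain Ω) (hΛ : St.IsBoundedDomain Λ)
    (hApp : SpecApp) (hTop : SpecTop2) (hTil : SpecTiling2) {f : V → V} {F : V → Mat} (hf : St.IsHomeo Ω Λ f)
    (hF : St.IsSobolev p Ω f F) (hK : K ⊆ Ω) (hKn : K.Nonempty) (hKo : IsOpen (Ω \ K))
    (hK0 : volume K = 0) (hO : FineOff Ω Λ K f F) (hsl : SmallSlices K f) {Csq : ℝ≥0∞}
    (hC : SqueezeQ p Csq) {CT : ℝ} (hCT : SqzC CT) {D : ℝ} (hD : ∀ y ∈ Λ, ‖y‖ ≤ D) {t : ℝ}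
    (ht : 0 < t) (ht1 : t ≤ 1) {σ₀ : V → ℝ} (hσ : ContinuousOn σ₀ Ω)
    (hσ0 : ∀ x ∈ Ω, 0 < σ₀ x) :
    ∃ T, St.IsDiffeo Ω Λ T ∧ (∀ x ∈ Ω, ‖T x - f x‖ ≤ σ₀ x) ∧ err p Ω f F T ≤
      A3 p Csq (max CT 1) D (volume Ω) * ENNReal.ofReal t := by
  obtain ⟨hO1, hae, -⟩ := hO
  have hpos : ∀ x ∈ Ω \ K, 0 < infDist x K := by
    intro x hx
    rw [← infDist_closure, ← (isClosed_closure.notMem_iff_infDist_pos hKn.closure)]
    intro hxc
    obtain ⟨y, hy, hyK⟩ := mem_closure_iff_nhds.1 hxc _ (hKo.mem_nhds hx)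
    exact hy.2 hyK
  obtain ⟨g, hg, hgK, hgc, hgn0, hgd⟩ := hO1 (fun x => min (min t (infDist x K)) (σ₀ x / 8))
    (((continuous_const.min (continuous_infDist_pt K)).continuousOn).inf
      ((hσ.mono sdiff_subset).div_const 8))
    (fun x hx => lt_min (lt_min ht (hpos x hx)) (by have := hσ0 x hx.1; positivity))
  have hgn : ∀ x ∈ Ω \ K, ‖g x - f x‖ ≤ min t (infDist x K) := fun x hx =>
    (hgn0 x hx).trans (min_le_left _ _)
  have hgσ : ∀ x ∈ Ω, ‖g x - f x‖ ≤ σ₀ x / 8 := by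
    intro x hx
    by_cases hxK : x ∈ K
    · rw [hgK x hxK, sub_self, norm_zero]
      have := hσ0 x hx
      positivity
    · exact (hgn0 x ⟨hx, hxK⟩).trans (min_le_right _ _)
  have hgd' : ∀ x ∈ Ω \ K, ∀ᶠ y in 𝓝 x, ‖(g y - g x) - (f y - f x)‖ ≤ t * ‖y - x‖ := by
    intro x hx
    filter_upwards [hgd x hx] with y hy
    exact hy.trans (mul_le_mul_of_nonneg_right ((min_le_left _ _).trans (min_le_left _ _))
      (norm_nonneg _))
  have hgcont : ContinuousOn g (Ω \ K) := by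
    obtain ⟨k, -, h, -⟩ := hg
    exact h.mono sdiff_subset
  have hgcon := conicalOn_off hKo hgc
  have hHm : Measurable (Hg p (Ω \ K) g) := measurable_Hg hKo hgcont
  have hHf := lintegral_Hg_ne_top hp hΩ hF hae ht.le ht1 hgd'
  have hHf' : ∫⁻ x in Ω, Hg p (Ω \ K) g x ≠ ⊤ := hHf
  have happ : App Ω Λ g := hApp p Ω Λ K f g F hp hΩ hΛ hf hF hg hK hKo hgK
    (fun _ x hx => (hgn x hx).trans (min_le_right _ _)) (fun x hx => by
      filter_upwards [hgd' x hx] with y hy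
      exact hy.trans (mul_le_mul_of_nonneg_right ht1 (norm_nonneg _)))
  -- the size function and the accuracy in the target
  obtain ⟨k, ⟨hkg, hkg'⟩, hgcΩ, hkc⟩ := id hg
  obtain ⟨ρ₀, hρ, hρ2⟩ := exists_size hΩ.1 hgcΩ hσ hσ0
  set θ : V → ℝ := fun z => σ₀ (k z) / 16 with hθd
  have hθ : ContinuousOn θ Λ := (hσ.comp hkc fun z hz => (hkg' z hz).1).div_const 16
  have hθ0 : ∀ z ∈ Λ, 0 < θ z := fun z hz => by
    have := hσ0 _ (hkg' z hz).1
    simp only [hθd]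
    positivity
  obtain ⟨ρ₁, hρ₁, hρ₁2⟩ := exists_size hΛ.1 (g := id) continuousOn_id hθ hθ0
  obtain ⟨v, X, W, w1, w2, w3, w4, w5, w6, w7, w8⟩ := hTil Ω K (Hg p (Ω \ K) g) t
    (fun k t => (∀ j, j ≠ k → volume ((fun x : V => x j) '' (K ∩ {x | x k = t})) = 0) ∧
      ∀ i, volume ((fun x : V => f x i) '' (K ∩ {x | x k = t})) = 0) ρ₀
    hΩ.1 hΩ.2.1.nonempty (PK.isBounded_of_domain hΩ) hρ hK hKo hsl
    (fun k => (hsl k).mono fun t h => h.1) hHm hHf' ht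
  have TD : TileData Ω K X W := ⟨w1, w2, w3⟩
  have hKc : K ⊆ cU W := TD.sub_cU hK
  have hGs : onGrid K X ⊆ K := onGrid_sub X
  have him : g '' onGrid K X = f '' onGrid K X := by
    refine image_congr fun x hx => hgK x (hGs hx)
  obtain ⟨N1, W2, κ, U, n1, n2, n3, n4, n5, k1, k2, k3, u1, u2, u3, u4⟩ :=
    target_dataθ hp hCT hΩ hΛ (hGs.trans hK) (isOpen_diff_onGrid hΩ.1 hKo X) hg
      (fun l => by
        rw [him]
        exact null_onGrid X (fun s i => (w4 s).2 i) l)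
      (measure_mono_null hGs hK0) hHf' ht hθ hθ0
  have hUΛ : ∀ i, U i ⊆ Λ := fun i => (u2 i).trans (W2.sub i)
  have hgc' : ContinuousOn g Ω := by
    obtain ⟨k, -, h, -⟩ := hg
    exact h
  obtain ⟨h, A, a1, a2, a3, a4, a5, a6, a7⟩ := hTop Ω Λ K (Ω ∩ g ⁻¹' (⋃ i, U i)) g v X hΩ.1 hΩ.2.1
    hΛ.1 hΛ.2.1 hK hKo hg hgc happ w3
    (fun s j hj => measure_mono_null (image_mono fun x hx =>
      (⟨hx.1, H741.sq_nrm X hx.2⟩ : x ∈ K ∩ {x | x (X.nrm s) = X.slo s (X.nrm s)}))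
      ((w4 s).1 j hj))
    (hgc'.isOpen_inter_preimage hΩ.1 (isOpen_iUnion u1)) inter_subset_left
    (fun s x hx => ⟨hK hx.1, u3 ⟨x, mem_iUnion.2 ⟨s, hx⟩, rfl⟩⟩)
  have hAU : ∀ x ∈ A, h.toFun x ∈ ⋃ i, U i := by
    intro x hx
    obtain ⟨y, hy, hy'⟩ := a4 x hx
    rw [← hy']
    exact hy.2
  have hAc : ∀ x ∈ A, x ∈ cU W := by
    intro x hx
    obtain ⟨q, hq, hxq⟩ := a5 x hx
    obtain ⟨i, hi⟩ := w2 q hq
    exact mem_iUnion.2 ⟨i, hi ▸ hxq⟩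
  have hh : ∀ x ∈ Ω, x ∉ A → (∀ i, ¬ ∀ l, |x l - W.c i l| < W.ρ i) → h.toFun x = g x := by
    intro x hx hxA hi
    refine a6 x hx hxA fun q hq hl => ?_
    obtain ⟨i, hi'⟩ := w2 q hq
    exact hi i (TileData.open_iff hi' hl)
  have hoff : ∀ x ∈ Ω, x ∉ cU W → h.toFun x = g x := fun x hx hx' =>
    hh x hx (fun h => hx' (hAc x h)) fun i hi => hx' (mem_iUnion.2 ⟨i, fun l => (hi l).le⟩)
  have := W.cnt
  have := W2.cnt
  obtain ⟨e, he, hes⟩ := exists_weights W.ι ht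
  obtain ⟨e', he', hes'⟩ := exists_weights W2.ι ht
  have hkh : ∀ y ∈ Ω, k (h.toFun y) ∈ Ω := fun y hy => (hkg' _ (h.mapsTo hy)).1
  obtain ⟨G, hG, hGc, hGs0, hGf, hGd, hGA, hGN⟩ := exists_Gs hp hΩ hΛ hg W h a2 u1 hUΛ hAU n2 n4 W2
    n5 hoff ht he (s0 := fun y => min (ρ₁ (h.toFun y)) (σ₀ (k (h.toFun y)) / 16))
    (((_root_.P073.Net.NC.cont hρ₁).comp_continuousOn h.cont).inf
      ((hσ.comp (hkc.comp h.cont h.mapsTo) hkh).div_const 16))
    (fun y hy => lt_min (hρ₁.pos _ (h.mapsTo hy)) (by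
      have := hσ0 _ (hkh y hy)
      positivity))
  obtain ⟨ε, ε1, ε2, ε3⟩ := exists_ratio hp (ι := W2.ι)
    (E := fun m => ∑' q, facesU p W G (U m) q)
    (fun m => tsum_facesU_ne_top hp hG hΩ.1 W (u2 m) (H655.isCompact_cube (W2.pos m)) (W2.sub m))
    he'
  obtain ⟨T, hT, hTθ⟩ := u4 ε ε1 ε2
  have hTG : St.IsDiffeo Ω Λ (T ∘ G) := AB.isDiffeo_comp hG hT.diffeo
  obtain ⟨S, hS, hSid, hSm, hSE⟩ := hC Ω Λ ∅ W (T ∘ G) (fun i => ENNReal.ofReal (e i)) hΩ.1 hTG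
    (fun i => (ENNReal.ofReal_pos.2 (he i)).ne')
  have hP : St.IsDiffeo Ω Λ ((T ∘ G) ∘ S) := AB.isDiffeo_comp hS hTG
  refine ⟨(T ∘ G) ∘ S, hP, ?_, ?_⟩
  · -- closeness
    intro x hx
    obtain ⟨q, hxq, hyq⟩ : ∃ q, x ∈ X.cube q ∧ S x ∈ X.cube q := by
      by_cases hxW : x ∈ cU W
      · obtain ⟨i, hi⟩ := mem_iUnion.1 hxW
        obtain ⟨q, hq, -⟩ := w1 i
        exact ⟨q, hq ▸ hi, hq ▸ hSm i x hi⟩
      · obtain ⟨q, hq⟩ := X.cover x hx
        exact ⟨q, hq, by rw [hSid x hxW]; exact hq⟩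
    obtain ⟨q', ⟨z, hzq', hzq⟩, y', hy', hhy⟩ := a7 q (S x) hyq
    have hzΩ : z ∈ Ω := X.sub q hzq
    have d1 : ‖x - z‖ ≤ ρ₀ x := w8 q x hxq z hzq
    have d2 : ‖z - y'‖ ≤ ρ₀ z := w8 q' z hzq' y' hy'
    have d3 : ρ₀ z ≤ ρ₀ x + ‖z - x‖ := hρ.lip z x
    rw [norm_sub_rev z x] at d3
    have d4 : ‖x - y'‖ ≤ 4 * ρ₀ x := by
      have h1 := norm_add_le (x - z) (z - y')
      rw [sub_add_sub_cancel] at h1
      have h2 := hρ.pos x hx
      linarith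
    obtain ⟨e1, e2, e3⟩ := hρ2 x hx y' d4
    have hSΩ : S x ∈ Ω := X.sub q hyq
    have hkh' : k (h.toFun (S x)) = y' := by rw [hhy, (hkg y' e1).2]
    have c1 := hGs0 (S x) hSΩ
    have hhΛ : h.toFun (S x) ∈ Λ := h.mapsTo hSΩ
    have c2 : ‖G (S x) - h.toFun (S x)‖ ≤ σ₀ x / 8 := by
      refine c1.trans ((min_le_right _ _).trans ?_)
      rw [hkh']
      linarith
    have c3 : θ (G (S x)) < 2 * θ (h.toFun (S x)) := by
      refine (hρ₁2 (h.toFun (S x)) hhΛ (G (S x)) ?_).2.2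
      rw [norm_sub_rev]
      have := hρ₁.pos _ hhΛ
      exact (c1.trans (min_le_left _ _)).trans (by linarith)
    have c4 : θ (h.toFun (S x)) = σ₀ y' / 16 := by
      simp only [hθd, hkh']
    have c5 := hTθ (G (S x)) (diffeo_maps hG hSΩ)
    have c6 := hgσ x hx
    have c7 : ‖h.toFun (S x) - g x‖ < σ₀ x / 8 := by
      rw [hhy]
      exact e2
    have t1 := norm_add_le (T (G (S x)) - G (S x)) (G (S x) - f x)
    rw [sub_add_sub_cancel] at t1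
    have t2 := norm_add_le (G (S x) - h.toFun (S x)) (h.toFun (S x) - f x)
    rw [sub_add_sub_cancel] at t2
    have t3 := norm_add_le (h.toFun (S x) - g x) (g x - f x)
    rw [sub_add_sub_cancel] at t3
    show ‖T (G (S x)) - f x‖ ≤ σ₀ x
    linarith [hσ0 x hx]
  have hcm := measurableSet_cU W
  have hΩm := hΩ.1.measurableSet
  have hC1 : (0 : ℝ) ≤ max CT 1 := le_trans zero_le_one (le_max_right _ _)
  -- order zero
  have z := zero_part hp (T := (T ∘ G) ∘ S) (f := f) hcm (D := 2 * D) ht.le ht1 hΩm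
    (fun x hx => by
      have h1 := hD _ (diffeo_maps hP hx)
      have h2 := hD _ (homeo_maps hf hx)
      have h3 := norm_sub_le (((T ∘ G) ∘ S) x) (f x)
      linarith)
    (fun x hx hxc => by
      have h1 := hGc x hx
      have h2 : ‖g x - f x‖ ≤ t :=
        (hgn x ⟨hx, fun h => hxc (hKc h)⟩).trans (min_le_left _ _)
      have h3 : ((T ∘ G) ∘ S) x = T (G x) := by
        show T (G (S x)) = T (G x)
        rw [hSid x hxc]
      have h5 := (hT.near _ (diffeo_maps hG hx)).trans k2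
      rw [hoff x hx hxc] at h1
      rw [h3]
      have h4 := norm_add_le (G x - g x) (g x - f x)
      rw [sub_add_sub_cancel] at h4
      have h6 := norm_add_le (T (G x) - G x) (G x - f x)
      rw [sub_add_sub_cancel] at h6
      linarith) w5
  -- the derivatives
  have hKnull := hK0
  rw [measure_eq_zero_iff_ae_notMem] at hKnull
  have d : ∀ j, ∫⁻ x in Ω,
      ENNReal.ofReal (‖fderiv ℝ ((T ∘ G) ∘ S) x (ev j) - cl (F x) (ev j)‖ ^ p) ≤
      2 ^ (p - 1) * (Csq * B3 p (max CT 1) + 1 + 2 ^ (p - 1)) * ENNReal.ofReal t +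
        C3 p (max CT 1) (volume Ω) * ENNReal.ofReal t := by
    intro j
    rw [← lintegral_inter_add_sdiff _ Ω hcm]
    refine add_le_add ((lintegral_mono_set inter_subset_right).trans ?_) ?_
    · refine on_part' hp W (e := e) (Φ := facesE p W (T ∘ G)) ?_ two_rpow_ne_top hHm w6 hSE ?_ hes
      · filter_upwards [hKnull, F_le_Hg hp hKo hgcont hgcon hae ht.le ht1 hgd' j]
          with x hx1 hx2 hx
        exact hx2 ⟨H655.cU_subset W hx, hx1⟩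
      · exact faces_sum3 W (fun i => facesE_le3 hp hΩ.1 hΛ.1 hKo hgcont W a2
          (fun i k σ hσ x hx hxk hxK => TD.face a3 i k hσ hx hxk hxK) hh u1 hC1 ε1 hG hT hGA i
          (hGf i)) hes w7 ε3 hes'
    · exact off_part3 hp hΩ hΛ hKo hae ht.le ht1 hgcont hgd' W hKc h hoff hG hC1 k1.le hT hSid n1
        hGN hGd n3 k3 j
  unfold err A3
  refine (add_le_add z (Finset.sum_le_sum fun j _ => d j)).trans (le_of_eq ?_)
  rw [Finset.sum_const, Finset.card_univ, Fintype.card_fin, nsmul_eq_mul]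
  push_cast
  ring


/-- **the fine form of theorem (RT)** -/
theorem fine_RT (hApp : SpecApp) (hTop : SpecTop2) (hTil : SpecTiling2) (hp : 1 ≤ p) (hp3 : p < 3)
    (hΩ : St.IsBoundedDomain Ω) (hΛ : St.IsBoundedDomain Λ) (hK : K ⊆ Ω) (hKn : K.Nonempty)
    (hKo : IsOpen (Ω \ K))
    {f : V → V} {F : V → Mat} (hf : St.IsHomeo Ω Λ f) (hF : St.IsSobolev p Ω f F)
    (hO : FineOff Ω Λ K f F) (hsl : SmallSlices K f) {σ₀ : V → ℝ} (hσ : ContinuousOn σ₀ Ω)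
    (hσ0 : ∀ x ∈ Ω, 0 < σ₀ x) {ε : ℝ} (hε : 0 < ε) :
    ∃ P, St.IsDiffeo Ω Λ P ∧ (∀ x ∈ Ω, ‖P x - f x‖ ≤ σ₀ x) ∧ err p Ω f F P ≤ ENNReal.ofReal ε := by
  obtain ⟨C, hC, hsq⟩ := exists_squeezeQ H705.specCube3 hp hp3
  obtain ⟨CT, -, hCT⟩ := Vale.Agent.P073.H655.specSqz_iff.1 H705.specSqz
  obtain ⟨D, -, hD⟩ := AB.norm_bound_of_domain hΛ
  have hv := PK.volume_ne_top_of_domain hΩ
  have hA := A3_ne_top (p := p) (Csq := C) (C := max CT 1) (D := D) (v := volume Ω) hC hv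
  have h1 := ENNReal.tendsto_ofReal (tendsto_one_div_add_atTop_nhds_zero_nat (𝕜 := ℝ))
  rw [ENNReal.ofReal_zero] at h1
  have h2 := ENNReal.Tendsto.const_mul (a := A3 p C (max CT 1) D (volume Ω)) h1 (Or.inr hA)
  rw [mul_zero] at h2
  obtain ⟨n, hn⟩ := (h2.eventually (gt_mem_nhds (ENNReal.ofReal_pos.2 hε))).exists
  obtain ⟨P, h3, h4, h5⟩ := one_step_fine hp hΩ hΛ hApp hTop hTil hf hF hK hKn hKo
    (null_of_small hΩ.1 hK hKo hsl) hO hsl hsq hCT hD (t := 1 / ((n : ℝ) + 1)) (by positivity)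
    (by
      rw [div_le_one (by positivity)]
      have : (0 : ℝ) ≤ n := Nat.cast_nonneg n
      linarith) hσ hσ0
  exact ⟨P, h3, h4, h5.trans hn.le⟩

end Vale.Agent.P073.RT.H655
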