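import Vale.Agent.P073.RT.Rows

/-!
# P073, mixed singular sets: statements of the rows
-/

namespace Vale.Agent.P073.RT

open MeasureTheory Set Filter Topology Metric
open Vale.Agent.P073.St (V Mat euc)
open Vale.Agent.P073.SQ (ev cube)
open Vale.Agent.P073.H880 (Boxes)
open _root_.P073 (ConHomeo ConicalOn ConicalWithinAt ConBall)
open _root_.P073.PR720 (LF)
open _root_.P073.PA691 (BoxCx Cells)
open scoped ContDiff ENNReal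

/-- **Row T4'**: `SpecTop` with control of the images of the tiles -/
def SpecTop2 : Prop :=
  ∀ (Ω Λ K N : Set V) (g : V → V) (v : V) (X : BoxCx Ω v), IsOpen Ω → IsConnected Ω → IsOpen Λ →
    IsConnected Λ → K ⊆ Ω → IsOpen (Ω \ K) → St.IsHomeo Ω Λ g →
    (∀ x ∈ Ω \ K, ConicalWithinAt g Ω x) → App Ω Λ g → (∀ x ∈ K, ∀ e, x ∉ X.edge e) →
    (∀ s, ∀ j, j ≠ X.nrm s → volume ((fun x : V => x j) '' (K ∩ X.sq s)) = 0) →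
    IsOpen N → N ⊆ Ω → (∀ s, K ∩ X.sq s ⊆ N) →
    ∃ (h : ConHomeo Ω Λ) (A : Set V), A ⊆ Ω ∧ IsOpen (Ω \ A) ∧ (∀ s, K ∩ X.sq s ⊆ A) ∧
      (∀ x ∈ A, h.toFun x ∈ g '' N) ∧
      (∀ x ∈ A, ∃ p, (X.cube p ∩ K).Nonempty ∧ x ∈ X.cube p) ∧
      (∀ x ∈ Ω, x ∉ A → (∀ p, (X.cube p ∩ K).Nonempty → ¬ ∀ l, X.lo p l < x l ∧ x l < X.hi p l) →
        h.toFun x = g x) ∧
      ∀ q, ∀ x ∈ X.cube q, ∃ p, (X.cube p ∩ X.cube q).Nonempty ∧ ∃ y ∈ X.cube p, h.toFun x = g y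

/-- **Row G5'**: `SpecTiling` with a size function -/
def SpecTiling2 : Prop :=
  ∀ (Ω K : Set V) (H : V → ℝ≥0∞) (ε : ℝ) (P : Fin 3 → ℝ → Prop) (ρ₀ : V → ℝ), IsOpen Ω →
    Ω.Nonempty → Bornology.IsBounded Ω → _root_.P073.Net.SizeFn Ω ρ₀ → K ⊆ Ω → IsOpen (Ω \ K) →
    (∀ k, ∀ᵐ t : ℝ, P k t) →
    (∀ k, ∀ᵐ t : ℝ, ∀ j, j ≠ k → volume ((fun x : V => x j) '' (K ∩ {x | x k = t})) = 0) →
    Measurable H → ∫⁻ x in Ω, H x ≠ ⊤ → 0 < ε →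
    ∃ (v : V) (X : BoxCx Ω v) (W : Boxes Ω ∅),
      (∀ i, ∃ p, cube (W.c i) (W.ρ i) = X.cube p ∧ (X.cube p ∩ K).Nonempty) ∧
      (∀ p, (X.cube p ∩ K).Nonempty → ∃ i, cube (W.c i) (W.ρ i) = X.cube p) ∧
      (∀ x ∈ K, ∀ e, x ∉ X.edge e) ∧ (∀ s, P (X.nrm s) (X.slo s (X.nrm s))) ∧
      volume (⋃ i, cube (W.c i) (W.ρ i)) ≤ ENNReal.ofReal ε ∧
      ∫⁻ x in ⋃ i, cube (W.c i) (W.ρ i), H x ≤ ENNReal.ofReal ε ∧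
      ∑' i, ∑ k, ∑ σ ∈ ({1, -1} : Finset ℝ),
        ∫⁻ x in cube (W.c i) (W.ρ i), H (Function.update x k (W.c i k + σ * W.ρ i)) ≤
          ENNReal.ofReal ε ∧
      ∀ q, ∀ x ∈ X.cube q, ∀ y ∈ X.cube q, ‖x - y‖ ≤ ρ₀ x

end Vale.Agent.P073.RT
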