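import Vale.Agent.P073.RT.H741.Nbhd
import Vale.Agent.P073.RT.H712.Repl
import Vale.Agent.P073.RT.H741.Repl
import Vale.Agent.P073.RT.H712.Squares
import Vale.Agent.P073.PA285.All

/-!
# P073, theorem (RT), row T4: the call of ASM
-/

open Set Metric Topology Filter

namespace Vale.Agent.P073.RT.H655

open Vale.Agent.P073.St (V)
open _root_.P073 (ConHomeo ConicalOn ConicalWithinAt ConBall)
open _root_.P073.PR720 (LF)
open _root_.P073.PA691 (BoxCx Cells)
open Vale.Agent.P073.RT.H741

variable {Ω Λ K N : Set V} {v : V} {g : V → V}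

theorem convex_plo (c : V) (k : Fin 3) (r η : ℝ) : Convex ℝ (plo c k r η) := by
  have h1 : plo c k r η = Set.pi univ (fun l => if l = k then Ioo (c l - η) (c l + η) else
      Ioo (c l - r) (c l + r)) := by
    ext x
    simp only [plo, mem_ofPred_eq, Set.mem_pi, mem_univ, true_implies, abs_lt]
    constructor
    · rintro ⟨h1, h2⟩ l
      by_cases hl : l = k
      · subst hl
        simp only [if_true, mem_Ioo]
        constructor <;> linarith [h1.1, h1.2]
      · simp only [hl, if_false, mem_Ioo]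
        have := h2 l hl
        constructor <;> linarith [this.1, this.2]
    · intro h
      refine ⟨?_, fun l hl => ?_⟩
      · have := h k
        simp only [if_true, mem_Ioo] at this
        constructor <;> linarith [this.1, this.2]
      · have := h l
        simp only [hl, if_false, mem_Ioo] at this
        constructor <;> linarith [this.1, this.2]
  rw [h1]
  refine convex_pi fun l _ => ?_
  by_cases hl : l = k
  · simp only [hl, if_true]
    exact convex_Ioo _ _
  · simp only [hl, if_false]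
    exact convex_Ioo _ _

/-- the union of the tiles which meet a given one -/
def star (X : BoxCx Ω v) (j : X.T) : Set V := ⋃ p ∈ {p | (X.cube p ∩ X.cube j).Nonempty}, X.cube p

theorem lf_star (X : BoxCx Ω v) : LF (star X) Ω := by
  intro x hx
  obtain ⟨U, hU, hfin⟩ := X.lfT x hx
  refine ⟨U, hU, ?_⟩
  have hfin' : ∀ p : X.T, {j | (X.cube j ∩ X.cube p).Nonempty}.Finite := by
    intro p
    have hc : IsCompact (X.cube p) := isCompact_Icc
    -- cover by the neighbourhoods of local finiteness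
    have h1 : ∀ y ∈ X.cube p, ∃ U ∈ 𝓝 y, {i | (X.cube i ∩ U).Nonempty}.Finite :=
      fun y hy => X.lfT y (X.sub p hy)
    choose! O hO hOf using h1
    obtain ⟨t, ht, htc⟩ := hc.elim_nhds_subcover O hO
    refine (t.finite_toSet.biUnion fun y hy => hOf y (ht y hy)).subset ?_
    rintro j ⟨z, hzj, hzp⟩
    obtain ⟨y, hy, hz⟩ := mem_iUnion₂.1 (htc hzp)
    exact mem_iUnion₂.2 ⟨y, hy, z, hzj, hz⟩
  refine (hfin.biUnion fun p _ => hfin' p).subset ?_
  rintro j ⟨z, hz, hzU⟩
  obtain ⟨p, hp, hzp⟩ := mem_iUnion₂.1 hz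
  obtain ⟨w, hw1, hw2⟩ := hp
  exact mem_iUnion₂.2 ⟨p, ⟨z, hzp, hzU⟩, w, hw2, hw1⟩

theorem cube_sub_star (X : BoxCx Ω v) (j : X.T) : X.cube j ⊆ star X j := by
  intro z hz
  exact mem_iUnion₂.2 ⟨j, ⟨z, hz, hz⟩, hz⟩

theorem frontier_sub_cube (X : BoxCx Ω v) (j : X.T) : frontier (X.cube j) ⊆ X.cube j := by
  have : IsClosed (X.cube j) := isClosed_Icc
  exact this.frontier_subset

/-- **the call of ASM** -/
theorem exists_h0 (X : BoxCx Ω v) (hΩ : IsOpen Ω) (hΛ : IsOpen Λ) (hΛc : IsConnected Λ)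
    (hg : St.IsHomeo Ω Λ g) {U : X.S → Set V}
    (hUc : ∀ s, U s ⊆ X.cube (X.sm s) ∪ X.cube (X.sp s))
    (hUf : ∀ s p, U s ∩ frontier (X.cube p) ⊆ X.sqo s)
    (hUp : ∀ s p, p ≠ X.sm s → p ≠ X.sp s → Disjoint (U s) (X.cube p))
    (hUU : ∀ s s', s ≠ s' → Disjoint (U s) (U s'))
    (hUm : ∀ s p, (fun k => (X.lo p k + X.hi p k) / 2) ∉ U s)
    {I : Type} (σ : I → X.S) (c : I → V) (r η : I → ℝ) (hη : ∀ i, 0 < η i)
    (hPU : ∀ i, plo (c i) (X.nrm (σ i)) (r i) (η i) ⊆ U (σ i)) {X' : Set V}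
    (k : ConHomeo (⋃ p, frontier (X.cube p)) X') (hX' : X' ⊆ Λ) (hX'c : closure X' ∩ Λ ⊆ X')
    (hk1 : ∀ x ∈ ⋃ p, frontier (X.cube p),
      (∀ i, x ∉ dsk (c i) (X.nrm (σ i)) (r i) ∩ plo (c i) (X.nrm (σ i)) (r i) (η i)) →
        k.toFun x = g x)
    (hk2 : ∀ i, ∀ x ∈ dsk (c i) (X.nrm (σ i)) (r i) ∩ plo (c i) (X.nrm (σ i)) (r i) (η i),
      k.toFun x ∈ g '' plo (c i) (X.nrm (σ i)) (r i) (η i)) :
    ∃ h₀ : ConHomeo Ω Λ, ∀ x ∈ ⋃ p, frontier (X.cube p), h₀.toFun x = k.toFun x := by
  classical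
  obtain ⟨gi, hinv, hgc, hgic⟩ := hg
  have hPΩ : ∀ i, plo (c i) (X.nrm (σ i)) (r i) (η i) ⊆ Ω := fun i x hx => by
    rcases hUc _ (hPU i hx) with h | h
    · exact X.sub _ h
    · exact X.sub _ h
  have hfrΩ : ∀ p, frontier (X.cube p) ⊆ Ω := fun p x hx => X.sub p (frontier_sub_cube X p hx)
  set P : I → Set V := fun i => plo (c i) (X.nrm (σ i)) (r i) (η i) with hP
  set C := cellsOf X (specCells Ω v X hΩ) with hC
  set W : X.T → Set V := fun j => frontier (X.cube j) ∪
    ⋃ i ∈ {i | X.sq (σ i) ⊆ frontier (X.cube j)}, P i with hW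
  -- the point of the source which corresponds to the new image
  have hpos : ∀ x ∈ ⋃ p, frontier (X.cube p), gi (k.toFun x) = x ∨
      ∃ i, x ∈ P i ∧ gi (k.toFun x) ∈ P i := by
    intro x hx
    by_cases h : ∃ i, x ∈ dsk (c i) (X.nrm (σ i)) (r i) ∩ plo (c i) (X.nrm (σ i)) (r i) (η i)
    · obtain ⟨i, hi⟩ := h
      right
      refine ⟨i, hi.2, ?_⟩
      obtain ⟨y, hy, hyk⟩ := hk2 i x hi
      rw [← hyk, (hinv.1 y (hPΩ i hy)).2]
      exact hy
    · push Not at h
      left
      obtain ⟨p, hp⟩ := mem_iUnion.1 hx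
      rw [hk1 x hx h, (hinv.1 x (hfrΩ p hp)).2]
  have hPsq : ∀ i j, ∀ x ∈ P i, x ∈ frontier (X.cube j) → X.sq (σ i) ⊆ frontier (X.cube j) := by
    intro i j x hx hxj
    have h1 := hUf (σ i) j ⟨hPU i hx, hxj⟩
    exact sq_sub_frontier X _ (X.sqo_tile _ _ x h1.1 h1.2 (frontier_sub_cube X j hxj))
  have hWstar : ∀ j, X.cube j ∪ W j ⊆ star X j := by
    intro j x hx
    rcases hx with hx | hx | hx
    · exact cube_sub_star X j hx
    · exact cube_sub_star X j (frontier_sub_cube X j hx)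
    · obtain ⟨i, hi, hxi⟩ := mem_iUnion₂.1 hx
      have h0 : (X.sqo (σ i)).Nonempty := by
        by_contra h
        rw [not_nonempty_iff_eq_empty] at h
        have h1 := sq_sub_closure X (σ i)
        rw [h, closure_empty] at h1
        exact h1 (show X.slo (σ i) ∈ X.sq (σ i) from ⟨le_rfl, s_le X (σ i)⟩)
      obtain ⟨z, hz⟩ := h0
      have hz1 := sqo_sub X _ hz
      have hz2 := frontier_sub_cube X j (hi hz1)
      rcases hUc _ (hPU i hxi) with h | h
      · exact mem_iUnion₂.2 ⟨_, ⟨z, (sq_sub_cubes X _).1 hz1, hz2⟩, h⟩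
      · exact mem_iUnion₂.2 ⟨_, ⟨z, (sq_sub_cubes X _).2 hz1, hz2⟩, h⟩
  have hq : ∀ s, ∃ z, z ∈ X.sqo s := by
    intro s
    by_contra h
    push Not at h
    have h1 := sq_sub_closure X s
    rw [eq_empty_of_forall_notMem h, closure_empty] at h1
    exact h1 (show X.slo s ∈ X.sq s from ⟨le_rfl, s_le X s⟩)
  choose q hq using hq
  have hqX : ∀ s, q s ∈ ⋃ p, frontier (X.cube p) := fun s =>
    mem_iUnion.2 ⟨_, sq_sub_frontier X s (Or.inl rfl) (sqo_sub X s (hq s))⟩
  obtain ⟨hA, hA1, -⟩ := PA285.specASM PA285.specALX Λ Ω gi g C X' k W (fun j => mid X j) q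
    hΛ hΛc hΩ ⟨hinv.2, hinv.1⟩ hgic hgc hX' hX'c
    (by
      intro j x hx
      rcases hx with hx | hx
      · exact hfrΩ j hx
      · obtain ⟨i, -, hi⟩ := mem_iUnion₂.1 hx
        exact hPΩ i hi)
    ((lf_star X).subset hWstar)
    (by
      intro j y hy
      have hyX : y ∈ ⋃ p, frontier (X.cube p) := mem_iUnion.2 ⟨j, hy⟩
      rcases hpos y hyX with h | ⟨i, h1, h2⟩
      · rw [h, segment_same, singleton_subset_iff]
        exact Or.inl hy
      · intro z hz
        exact Or.inr (mem_iUnion₂.2 ⟨i, hPsq i j y h1 hy, (convex_plo _ _ _ _).segment_subset h1 h2 hz⟩))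
    (by
      intro j
      refine ⟨mid_mem X j, ?_⟩
      rintro (h | h)
      · exact mid_notMem_frontier X j h
      · obtain ⟨i, -, hi⟩ := mem_iUnion₂.1 h
        exact hUm _ j (hPU i hi))
    (by
      intro i j hij h
      rcases h with h | h | h
      · exact mid_notMem_frontier X i (cube_sep X hij (mid_mem X i) h)
      · exact mid_notMem_frontier X i (cube_sep X hij (mid_mem X i) (frontier_sub_cube X j h))
      · obtain ⟨l, -, hl⟩ := mem_iUnion₂.1 h
        exact hUm _ i (hPU l hl))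
    (by
      intro s
      refine ⟨sqo_sub X s (hq s), ?_⟩
      rintro ⟨-, h⟩
      exact h (hq s))
    (by
      intro s j hsj h
      have hne : j ≠ X.sm s ∧ j ≠ X.sp s := by
        constructor
        · intro he
          exact hsj (sq_sub_frontier X s (Or.inl he))
        · intro he
          exact hsj (sq_sub_frontier X s (Or.inr he))
      have hqj : q s ∉ X.cube j := by
        intro h1
        rcases X.sqo_tile s j (q s) (hq s).1 (hq s).2 h1 with h2 | h2
        · exact hne.1 h2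
        · exact hne.2 h2
      have hqf : q s ∈ frontier (X.cube (X.sm s)) :=
        sq_sub_frontier X s (Or.inl rfl) (sqo_sub X s (hq s))
      have hqU : ∀ s', q s ∈ U s' → s' = s := by
        intro s' h1
        by_contra h2
        have h3 := hUf s' _ ⟨h1, hqf⟩
        exact X.sqo_disj s s' (Ne.symm h2) (q s) (hq s).1 (hq s).2 (sqo_sub X s' h3)
      rcases hpos (q s) (hqX s) with h1 | ⟨i, h1, h2⟩
      · have h' : q s ∈ X.cube j ∪ W j := by rw [← h1]; exact h
        rcases h' with h' | h' | h'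
        · exact hqj h'
        · exact hqj (frontier_sub_cube X j h')
        · obtain ⟨i, hi, hqi⟩ := mem_iUnion₂.1 h'
          have := hqU _ (hPU i hqi)
          rw [mem_ofPred_eq, this] at hi
          exact hsj hi
      · have hσ := hqU _ (hPU i h1)
        have h3' : gi (k.toFun (q s)) ∈ U (σ i) := hPU i h2
        have h3 : gi (k.toFun (q s)) ∈ U s := by
          have h6 : U (σ i) = U s := congrArg U hσ
          exact h6 ▸ h3'
        have h4 : gi (k.toFun (q s)) ∉ X.cube j := fun h5 =>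
          disjoint_left.1 (hUp s j hne.1 hne.2) h3 h5
        rcases h with h | h | h
        · exact h4 h
        · exact h4 (frontier_sub_cube X j h)
        · obtain ⟨l, hl, hql⟩ := mem_iUnion₂.1 h
          by_cases h5 : σ l = s
          · rw [mem_ofPred_eq, h5] at hl
            exact hsj hl
          · exact disjoint_left.1 (hUU _ _ h5) (hPU l hql) h3)
  refine ⟨hA.symm, fun x hx => ?_⟩
  have h1 : k.toFun x ∈ X' := k.mapsTo hx
  have h2 : hA.toFun (k.toFun x) = x := by
    rw [hA1 h1]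
    exact k.left_inv hx
  have h3 : hA.invFun (hA.toFun (k.toFun x)) = k.toFun x := hA.left_inv (hX' h1)
  rw [h2] at h3
  exact h3

end Vale.Agent.P073.RT.H655
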